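import Vale.Agent.P025.R2.H602.Der
import Vale.Agent.P025.R2.H373.Gauss6

/-!
# (1.8) the residue on the Gauss field `F0`
-/

open Polynomial

universe u

set_option linter.unusedSectionVars false

namespace P025H373

noncomputable section

variable (C : Type u) [NontriviallyNormedField C] [IsUltrametricDist C] [CompleteSpace C]
  [IsAlgClosed C]

variable {C}

/-- the outer part of the splitting (1.1) -/
def out (x : F0 C) : F0 C := (exists_split x).choose_spec.2.choose

lemma out_spec (x : F0 C) : tt C * out x ∈ A2 C ∧ x - out x ∈ A1 C ∧ ‖out x‖ ≤ ‖x‖ := by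
  have h := (exists_split x).choose_spec.2.choose_spec
  refine ⟨h.2.1, ?_, h.2.2.2.2⟩
  have h1 : x - out x = (exists_split x).choose := by
    rw [sub_eq_iff_eq_add]; exact h.2.2.1.symm
  rw [h1]
  exact (exists_split x).choose_spec.1

lemma out_unique {x y : F0 C} (h2 : tt C * y ∈ A2 C) (h1 : x - y ∈ A1 C) : out x = y := by
  obtain ⟨h3, h4, -⟩ := out_spec x
  have : out x - y = 0 := by
    refine split_unique ?_ ?_
    · have e : out x - y = (x - y) - (x - out x) := by ring
      rw [e]; exact (A1 C).sub_mem h1 h4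
    · rw [mul_sub]; exact (A2 C).sub_mem h3 h2
  exact sub_eq_zero.1 this

lemma out_add (x y : F0 C) : out (x + y) = out x + out y := by
  obtain ⟨h1, h2, -⟩ := out_spec x
  obtain ⟨h3, h4, -⟩ := out_spec y
  refine out_unique ?_ ?_
  · rw [mul_add]; exact (A2 C).add_mem h1 h3
  · have e : x + y - (out x + out y) = (x - out x) + (y - out y) := by ring
    rw [e]; exact (A1 C).add_mem h2 h4

lemma out_smul (c : C) (x : F0 C) : out (c • x) = c • out x := by
  obtain ⟨h1, h2, -⟩ := out_spec x
  refine out_unique ?_ ?_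
  · rw [mul_smul_comm]; exact (A2 C).smul_mem h1 c
  · rw [← smul_sub]; exact (A1 C).smul_mem h2 c

variable (C) in
/-- the residue of `f dt`: sum of the residues at the poles in the closed unit disc -/
def res : F0 C →L[C] C :=
  LinearMap.mkContinuous
    { toFun := fun x => evInf C ⟨tt C * out x, (out_spec x).1⟩
      map_add' := fun x y => by
        rw [← map_add]
        congr 1
        apply Subtype.ext
        change tt C * out (x + y) = tt C * out x + tt C * out y
        rw [out_add, mul_add]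
      map_smul' := fun c x => by
        rw [RingHom.id_apply, ← map_smul]
        congr 1
        apply Subtype.ext
        change tt C * out (c • x) = c • (tt C * out x)
        rw [out_smul, mul_smul_comm] } 1 (fun x => by
      rw [one_mul]
      refine (norm_evInf_le _).trans ?_
      change ‖tt C * out x‖ ≤ ‖x‖
      rw [norm_mul, norm_tt, one_mul]
      exact (out_spec x).2.2)

lemma res_apply (x : F0 C) : res C x = evInf C ⟨tt C * out x, (out_spec x).1⟩ := rfl

lemma res_eq {x y : F0 C} (h2 : tt C * y ∈ A2 C) (h1 : x - y ∈ A1 C) :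
    res C x = evInf C ⟨tt C * y, h2⟩ := by
  rw [res_apply]
  congr 1
  apply Subtype.ext
  change tt C * out x = tt C * y
  rw [out_unique h2 h1]

theorem norm_res_le (x : F0 C) : ‖res C x‖ ≤ ‖x‖ := by
  rw [res_apply]
  refine (norm_evInf_le _).trans ?_
  change ‖tt C * out x‖ ≤ ‖x‖
  rw [norm_mul, norm_tt, one_mul]
  exact (out_spec x).2.2

theorem res_A1 {x : F0 C} (hx : x ∈ A1 C) : res C x = 0 := by
  have h2 : tt C * (0 : F0 C) ∈ A2 C := by rw [mul_zero]; exact (A2 C).zero_mem
  rw [res_eq h2 (by rwa [sub_zero])]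
  have : (⟨tt C * 0, h2⟩ : A2 C) = 0 := Subtype.ext (mul_zero _)
  rw [this, map_zero]

theorem res_A2 (x : A2 C) : res C ((tt C)⁻¹ * (x : F0 C)) = evInf C x := by
  have e : tt C * ((tt C)⁻¹ * (x : F0 C)) = x := mul_inv_cancel_left₀ tt_ne_zero _
  have h2 : tt C * ((tt C)⁻¹ * (x : F0 C)) ∈ A2 C := by rw [e]; exact x.2
  rw [res_eq h2 (by rw [sub_self]; exact (A1 C).zero_mem)]
  congr 1
  exact Subtype.ext e

theorem res_der (x : F0 C) : res C (der C x) = 0 := by
  obtain ⟨h1, h2, -⟩ := out_spec x
  have e : x = (x - out x) + (tt C)⁻¹ * (tt C * out x) := by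
    rw [inv_mul_cancel_left₀ tt_ne_zero]; ring
  set y : F0 C := tt C * out x with hy
  have hd : der C x = der C (x - out x) +
      (tt C)⁻¹ * (der C y - (tt C)⁻¹ * y) := by
    conv_lhs => rw [e]
    rw [map_add, Derivation.leibniz, Derivation.leibniz_inv, der_tt, smul_eq_mul, smul_eq_mul,
      smul_eq_mul]
    ring
  have hy1 : der C y ∈ A2 C := der_mem_A2 h1
  have hy2 : (tt C)⁻¹ * y ∈ A2 C := (A2 C).mul_mem inv_tt_mem_A2 h1
  have hy3 : der C y - (tt C)⁻¹ * y ∈ A2 C := (A2 C).sub_mem hy1 hy2
  rw [hd, map_add, res_A1 (der_mem_A1 h2), zero_add]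
  have := res_A2 (⟨_, hy3⟩ : A2 C)
  rw [this, evInf_eq_zero_iff]
  change tt C * (der C y - (tt C)⁻¹ * y) ∈ A2 C
  rw [mul_sub, mul_inv_cancel_left₀ tt_ne_zero]
  exact (A2 C).sub_mem (tt_mul_der_mem_A2 h1) h1

end

end P025H373
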