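import Mathlib

/-!
# (1.7) n-th roots of elements near `1` in closed subrings of complete ultrametric algebras
-/

open Filter Topology Finset

namespace P025H373

variable {C : Type*} [NontriviallyNormedField C] [IsUltrametricDist C]

section

variable {A : Type*} [NormedCommRing A] [NormOneClass A] [IsUltrametricDist A]

lemma norm_le_one_of_sub_le {y : A} {r : ℝ} (hr : r ≤ 1) (hy : ‖y - 1‖ ≤ r) : ‖y‖ ≤ 1 := by
  have h := IsUltrametricDist.norm_add_le_max (y - 1) 1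
  rw [sub_add_cancel, norm_one] at h
  exact h.trans (max_le (hy.trans hr) le_rfl)

lemma norm_mul_sub_one_le {y z : A} {r : ℝ} (hr : r ≤ 1) (hy : ‖y - 1‖ ≤ r) (hz : ‖z - 1‖ ≤ r) :
    ‖y * z - 1‖ ≤ r := by
  have e : y * z - 1 = (y - 1) * z + (z - 1) := by ring
  have h1 : ‖(y - 1) * z‖ ≤ r := by
    calc ‖(y - 1) * z‖ ≤ ‖y - 1‖ * ‖z‖ := norm_mul_le _ _
      _ ≤ r * 1 := mul_le_mul hy (norm_le_one_of_sub_le hr hz) (norm_nonneg _)
          ((norm_nonneg _).trans hy)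
      _ = r := mul_one r
  rw [e]
  exact (IsUltrametricDist.norm_add_le_max _ _).trans (max_le h1 hz)

lemma norm_pow_sub_one_le {y : A} {r : ℝ} (hr : r ≤ 1) (hy : ‖y - 1‖ ≤ r) (n : ℕ) :
    ‖y ^ n - 1‖ ≤ r := by
  induction n with
  | zero => simpa using (norm_nonneg _).trans hy
  | succ n ih => rw [pow_succ]; exact norm_mul_sub_one_le hr ih hy

end

/-- (1.7): an element at distance `< |n|²` from `1` in a closed subring has an `n`-th root. -/
theorem exists_pow_eq {A : Type*} [NormedCommRing A] [NormOneClass A] [NormedAlgebra C A]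
    [CompleteSpace A] [IsUltrametricDist A] (B : Subring A) (hB : IsClosed (B : Set A))
    (hC : ∀ c : C, algebraMap C A c ∈ B)
    {n : ℕ} (hn : (n : C) ≠ 0) {x : A} (hx : x ∈ B) (h : ‖x - 1‖ < ‖(n : C)‖ ^ 2) :
    ∃ y ∈ B, y ^ n = x ∧ ‖y - 1‖ ≤ ‖x - 1‖ / ‖(n : C)‖ := by
  set ν : ℝ := ‖(n : C)‖ with hν
  have hν0 : 0 < ν := norm_pos_iff.2 hn
  have hν1 : ν ≤ 1 := IsUltrametricDist.norm_natCast_le_one C n
  set ρ : ℝ := ‖x - 1‖ / ν with hρ
  have hρ0 : 0 ≤ ρ := by positivity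
  have hρν : ρ < ν := by
    rw [hρ, div_lt_iff₀ hν0, ← pow_two]; exact h
  have hρ1 : ρ ≤ 1 := hρν.le.trans hν1
  set m : A := algebraMap C A (n : C)⁻¹ with hm
  have hmn : ‖m‖ = ν⁻¹ := by rw [hm, norm_algebraMap', norm_inv]
  have hmB : m ∈ B := hC _
  have hmn1 : m * (n : A) = 1 := by
    have : (n : A) = algebraMap C A (n : C) := by simp
    rw [hm, this, ← map_mul, inv_mul_cancel₀ hn, map_one]
  let f : A → A := fun y => y - m * (y ^ n - x)
  let s : Set A := (B : Set A) ∩ Metric.closedBall 1 ρ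
  have hs : IsComplete s := (hB.inter Metric.isClosed_closedBall).isComplete
  have mem_s : ∀ y, y ∈ s ↔ y ∈ B ∧ ‖y - 1‖ ≤ ρ := fun y => by
    simp [s, dist_eq_norm]
  -- the basic estimate
  have key : ∀ y ∈ s, ∀ z ∈ s, ‖f y - f z‖ ≤ (ρ / ν) * ‖y - z‖ := by
    intro y hy z hz
    rw [mem_s] at hy hz
    have e1 : y ^ n - z ^ n = (∑ i ∈ range n, y ^ i * z ^ (n - 1 - i)) * (y - z) :=
      (Commute.geom_sum₂_mul (Commute.all y z) n).symm
    have e2 : f y - f z = m * ((n : A) - ∑ i ∈ range n, y ^ i * z ^ (n - 1 - i)) * (y - z) := by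
      have : f y - f z = (y - z) - m * (y ^ n - z ^ n) := by simp only [f]; ring
      rw [this, e1]
      linear_combination (z - y) * hmn1
    have e3 : ‖(n : A) - ∑ i ∈ range n, y ^ i * z ^ (n - 1 - i)‖ ≤ ρ := by
      have : (n : A) - ∑ i ∈ range n, y ^ i * z ^ (n - 1 - i) =
          ∑ i ∈ range n, (1 - y ^ i * z ^ (n - 1 - i)) := by
        rw [sum_sub_distrib]; simp
      rw [this]
      refine IsUltrametricDist.norm_sum_le_of_forall_le_of_nonneg hρ0 fun i _ => ?_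
      rw [norm_sub_rev]
      exact norm_mul_sub_one_le hρ1 (norm_pow_sub_one_le hρ1 hy.2 _)
        (norm_pow_sub_one_le hρ1 hz.2 _)
    rw [e2]
    calc ‖m * ((n : A) - ∑ i ∈ range n, y ^ i * z ^ (n - 1 - i)) * (y - z)‖
        ≤ ‖m * ((n : A) - ∑ i ∈ range n, y ^ i * z ^ (n - 1 - i))‖ * ‖y - z‖ := norm_mul_le _ _
      _ ≤ (‖m‖ * ‖(n : A) - ∑ i ∈ range n, y ^ i * z ^ (n - 1 - i)‖) * ‖y - z‖ := by
          gcongr; exact norm_mul_le _ _
      _ ≤ (ν⁻¹ * ρ) * ‖y - z‖ := by rw [hmn]; gcongr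
      _ = (ρ / ν) * ‖y - z‖ := by rw [div_eq_inv_mul]
  have hK0 : 0 ≤ ρ / ν := by positivity
  have hK1 : ρ / ν < 1 := (div_lt_one hν0).2 hρν
  have h1s : (1 : A) ∈ s := by
    rw [mem_s]; exact ⟨B.one_mem, by simpa using hρ0⟩
  have hf1 : ‖f 1 - 1‖ ≤ ρ := by
    have : f 1 - 1 = m * (x - 1) := by simp only [f, one_pow]; ring
    rw [this]
    calc ‖m * (x - 1)‖ ≤ ‖m‖ * ‖x - 1‖ := norm_mul_le _ _
      _ = ρ := by rw [hmn, hρ, div_eq_inv_mul]
  have hmaps : Set.MapsTo f s s := by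
    intro y hy
    have hy' := hy
    rw [mem_s] at hy' ⊢
    refine ⟨B.sub_mem hy'.1 (B.mul_mem hmB (B.sub_mem (B.pow_mem hy'.1 n) hx)), ?_⟩
    have h2 : ‖f y - f 1‖ ≤ ρ := by
      refine (key y hy 1 h1s).trans ?_
      calc ρ / ν * ‖y - 1‖ ≤ 1 * ρ := by gcongr; exact hy'.2
        _ = ρ := one_mul ρ
    have e : f y - 1 = (f y - f 1) + (f 1 - 1) := by ring
    rw [e]
    exact (IsUltrametricDist.norm_add_le_max _ _).trans (max_le h2 hf1)
  have hcontr : ContractingWith ⟨ρ / ν, hK0⟩ (hmaps.restrict f s s) := by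
    refine ⟨by exact_mod_cast hK1, LipschitzWith.of_dist_le_mul fun y z => ?_⟩
    change dist (f y) (f z) ≤ (ρ / ν) * dist (y : A) (z : A)
    rw [dist_eq_norm, dist_eq_norm]
    exact key y y.2 z z.2
  obtain ⟨y, hys, hfix, -, -⟩ := hcontr.exists_fixedPoint' hs hmaps h1s (edist_ne_top _ _)
  rw [mem_s] at hys
  refine ⟨y, hys.1, ?_, hys.2⟩
  have h3 : m * (y ^ n - x) = 0 := by
    have : y - m * (y ^ n - x) = y := hfix
    linear_combination (-1 : A) * this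
  have h4 : y ^ n - x = 0 := by
    calc y ^ n - x = (m * (n : A)) * (y ^ n - x) := by rw [hmn1, one_mul]
      _ = (n : A) * (m * (y ^ n - x)) := by ring
      _ = 0 := by rw [h3, mul_zero]
  exact sub_eq_zero.1 h4

end P025H373
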