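import Vale.Agent.P025.R2.H602.SubAux
import Vale.Agent.P025.R2.H373.Gauss6

/-!
# (1.9) change of radius `t ↦ c t`
-/

open Polynomial

universe u

set_option linter.unusedSectionVars false

namespace P025H373

noncomputable section

variable {C : Type u} [NontriviallyNormedField C] [IsUltrametricDist C] [CompleteSpace C]
  [IsAlgClosed C]

/-- `f(t) ↦ f(c t)` on `C(t)` -/
def scale (c : C) (hc : c ≠ 0) : RatFunc C ≃ₐ[C] RatFunc C :=
  letI := invertibleOfNonzero hc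
  IsLocalization.algEquivOfAlgEquiv (M := nonZeroDivisors C[X]) (T := nonZeroDivisors C[X])
    (RatFunc C) (RatFunc C) (algEquivCMulXAddC c 0)
    (by exact MulEquivClass.map_nonZeroDivisors (algEquivCMulXAddC c (0 : C)).toRingEquiv)

lemma scale_poly (c : C) (hc : c ≠ 0) (P : C[X]) :
    scale c hc (algebraMap C[X] (RatFunc C) P) =
      algebraMap C[X] (RatFunc C) (P.comp (Polynomial.C c * X)) := by
  let _ := invertibleOfNonzero hc
  have h : scale c hc (algebraMap C[X] (RatFunc C) P) =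
      algebraMap C[X] (RatFunc C) (algEquivCMulXAddC c 0 P) :=
    IsLocalization.algEquivOfAlgEquiv_eq _ _
  rw [h, algEquivCMulXAddC_apply, map_zero, add_zero]
  rfl

@[simp] theorem scale_X (c : C) (hc : c ≠ 0) :
    scale c hc RatFunc.X = RatFunc.C c * RatFunc.X := by
  rw [← RatFunc.algebraMap_X, scale_poly, X_comp, map_mul, RatFunc.algebraMap_C]

lemma scale_div (c : C) (hc : c ≠ 0) (P Q : C[X]) :
    scale c hc (algebraMap C[X] (RatFunc C) P / algebraMap C[X] (RatFunc C) Q) =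
      algebraMap C[X] (RatFunc C) (P.comp (Polynomial.C c * X)) /
        algebraMap C[X] (RatFunc C) (Q.comp (Polynomial.C c * X)) := by
  rw [map_div₀, scale_poly, scale_poly]

/-! ### inner side -/

variable (C) in
/-- polynomials as a subalgebra of `C(t)` -/
def polyS : Subalgebra C (RatFunc C) := (IsScalarTower.toAlgHom C C[X] (RatFunc C)).range

lemma mem_polyS {f : RatFunc C} : f ∈ polyS C ↔ ∃ P : C[X], algebraMap C[X] (RatFunc C) P = f :=
  Iff.rfl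

variable (C) in
lemma A1_eq : A1 C = clS (polyS C) := by
  have h : Algebra.adjoin C {tt C} = (polyS C).map (ιA C) := by
    ext x
    rw [Algebra.adjoin_singleton_eq_range_aeval, Subalgebra.mem_map]
    constructor
    · rintro ⟨P, rfl⟩
      exact ⟨_, ⟨P, rfl⟩, algebraMap_poly_eq P⟩
    · rintro ⟨_, ⟨P, rfl⟩, rfl⟩
      exact ⟨P, (algebraMap_poly_eq P).symm⟩
  rw [A1, clS, h]

lemma gp_comp_le {c : C} (h : ‖c‖ ≤ 1) (P : C[X]) : gp (P.comp (Polynomial.C c * X)) ≤ gp P := by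
  rw [gp_le_iff]
  intro i
  rw [comp_C_mul_X_coeff, norm_mul, norm_pow]
  calc ‖P.coeff i‖ * ‖c‖ ^ i ≤ gp P * 1 :=
        mul_le_mul (norm_coeff_le P i) (pow_le_one₀ (norm_nonneg _) h) (by positivity)
          (gp_nonneg _)
    _ = gp P := mul_one _

lemma poly_mem_A1 (P : C[X]) : algebraMap (RatFunc C) (F0 C) (algebraMap C[X] (RatFunc C) P) ∈
    A1 C := by
  rw [A1_eq]; exact mem_clS _ ⟨P, rfl⟩

lemma frac_F1 : ∀ x ∈ F1 C, ∃ a ∈ A1 C, ∃ b ∈ A1 C, b ≠ 0 ∧ x * b = a := by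
  intro x hx
  by_cases h0 : x = 0
  · exact ⟨0, zero_mem _, 1, one_mem _, one_ne_zero, by rw [h0, zero_mul]⟩
  · obtain ⟨g, hg0, h, hh, -, he⟩ := (mem_F1_iff h0).1 hx
    have hd : algebraMap C[X] (RatFunc C) g.denom ≠ 0 :=
      RatFunc.algebraMap_ne_zero g.denom_ne_zero
    refine ⟨algebraMap (RatFunc C) (F0 C) (algebraMap C[X] (RatFunc C) g.num) * (1 + h),
      mul_mem (poly_mem_A1 _) (add_mem (one_mem _) hh),
      algebraMap (RatFunc C) (F0 C) (algebraMap C[X] (RatFunc C) g.denom), poly_mem_A1 _, ?_, ?_⟩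
    · rw [Ne, map_eq_zero]; exact hd
    · have h1 : g * algebraMap C[X] (RatFunc C) g.denom = algebraMap C[X] (RatFunc C) g.num := by
        rw [← eq_div_iff hd, g.num_div_denom]
      rw [he, ← h1, map_mul]
      ring

lemma gen_polyS (f : RatFunc C) : ∃ u ∈ polyS C, ∃ v ∈ polyS C, v ≠ 0 ∧ f * v = u := by
  have hd : algebraMap C[X] (RatFunc C) f.denom ≠ 0 :=
    RatFunc.algebraMap_ne_zero f.denom_ne_zero
  exact ⟨_, ⟨f.num, rfl⟩, _, ⟨f.denom, rfl⟩, hd, by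
    change f * algebraMap C[X] (RatFunc C) f.denom = algebraMap C[X] (RatFunc C) f.num
    rw [← eq_div_iff hd, f.num_div_denom]⟩

theorem exists_sub1 (c : C) (hc : c ≠ 0) (h : ‖c‖ ≤ 1) :
    ∃ s : F1 C →ₐ[C] F1 C, (∀ f : RatFunc C, s (algebraMap (RatFunc C) (F1 C) f) =
        algebraMap (RatFunc C) (F1 C) (scale c hc f)) ∧
      ∀ x : F1 C, (x : F0 C) ∈ A1 C → (s x : F0 C) ∈ A1 C ∧ ‖(s x : F0 C)‖ ≤ ‖(x : F0 C)‖ := by
  refine exists_sub (polyS C) (scale c hc : RatFunc C →ₐ[C] RatFunc C) ?_ ?_ (A1 C) (A1_eq C)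
    (F1 C) (fun x hx => IntermediateField.subset_adjoin _ _ hx) frac_F1 ?_ gen_polyS
  · rintro _ ⟨P, rfl⟩
    exact ⟨P.comp (Polynomial.C c * X), (scale_poly c hc P).symm⟩
  · rintro _ ⟨P, rfl⟩
    change gauss C (scale c hc (algebraMap C[X] (RatFunc C) P)) ≤
      gauss C (algebraMap C[X] (RatFunc C) P)
    rw [scale_poly, gauss_poly, gauss_poly]
    exact gp_comp_le h P
  · intro x hx h0
    obtain ⟨P, hP, -, -, d, hd, e, he, he1, hx'⟩ := weierstrass_A1 hx h0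
    refine ⟨algebraMap C[X] (RatFunc C) (P * Polynomial.C d), ⟨_, rfl⟩, ?_, e, he, he1, ?_⟩
    · exact RatFunc.algebraMap_ne_zero (mul_ne_zero hP.ne_zero (by rwa [Ne, C_eq_zero]))
    · rw [hx', algebraMap_poly_eq, map_mul, aeval_C]
      rfl

/-- restriction of functions on `|t| ≤ 1` to `|t| ≤ ‖c‖`, `‖c‖ ≤ 1`, in the coordinate `t / c`. -/
def sub1 (c : C) (hc : c ≠ 0) (h : ‖c‖ ≤ 1) : F1 C →ₐ[C] F1 C := (exists_sub1 c hc h).choose

theorem sub1_algebraMap (c : C) (hc : c ≠ 0) (h : ‖c‖ ≤ 1) (f : RatFunc C) :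
    sub1 c hc h (algebraMap (RatFunc C) (F1 C) f) =
      algebraMap (RatFunc C) (F1 C) (scale c hc f) := (exists_sub1 c hc h).choose_spec.1 f

theorem sub1_mem_A1 (c : C) (hc : c ≠ 0) (h : ‖c‖ ≤ 1) (x : F1 C) (hx : (x : F0 C) ∈ A1 C) :
    (sub1 c hc h x : F0 C) ∈ A1 C ∧ ‖(sub1 c hc h x : F0 C)‖ ≤ ‖(x : F0 C)‖ :=
  (exists_sub1 c hc h).choose_spec.2 x hx

/-! ### outer side -/

lemma norm_coeff_scale_le {c : C} (h : 1 ≤ ‖c‖) (n : ℕ) (P : C[X]) (hP : P.degree ≤ n) (i : ℕ) :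
    ‖(Polynomial.C (c⁻¹ ^ n) * P.comp (Polynomial.C c * X)).coeff i‖ ≤ ‖P.coeff i‖ := by
  have hc : c ≠ 0 := by
    rintro rfl
    rw [norm_zero] at h
    exact absurd h (by norm_num)
  rw [coeff_C_mul, comp_C_mul_X_coeff]
  by_cases hi : i ≤ n
  · have e : c⁻¹ ^ n * (P.coeff i * c ^ i) = P.coeff i * c⁻¹ ^ (n - i) := by
      have : c⁻¹ ^ n = c⁻¹ ^ (n - i) * c⁻¹ ^ i := by rw [← pow_add, Nat.sub_add_cancel hi]
      rw [this, inv_pow c i]
      field_simp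
    rw [e, norm_mul, norm_pow, norm_inv]
    exact mul_le_of_le_one_right (norm_nonneg _)
      (pow_le_one₀ (by positivity) (inv_le_one_of_one_le₀ h))
  · have : P.coeff i = 0 := coeff_eq_zero_of_degree_lt (hP.trans_lt (by exact_mod_cast not_le.1 hi))
    rw [this]
    simp

lemma scale_pre2 {c : C} (hc : c ≠ 0) (h : 1 ≤ ‖c‖) {f : RatFunc C} (hf : f ∈ pre2 C) :
    scale c hc f ∈ pre2 C ∧ gauss C (scale c hc f) ≤ gauss C f := by
  obtain ⟨P, S, hS, hd, hn, rfl⟩ := hf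
  set n := S.natDegree with hn'
  have hSd : S.degree = n := degree_eq_natDegree hS.ne_zero
  have hSd' : S.degree ≤ n := hSd.le
  have hPd' : P.degree ≤ n := hd.trans hSd'
  have hcn : (c⁻¹ ^ n : C) ≠ 0 := pow_ne_zero _ (inv_ne_zero hc)
  set P' := Polynomial.C (c⁻¹ ^ n) * P.comp (Polynomial.C c * X) with hP'
  set S' := Polynomial.C (c⁻¹ ^ n) * S.comp (Polynomial.C c * X) with hS'
  have hlin : (Polynomial.C c * X : C[X]).natDegree = 1 := natDegree_C_mul_X c hc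
  have hS'n : S'.natDegree = n := by
    rw [hS', natDegree_C_mul hcn, natDegree_comp, hlin, mul_one]
  have hS'm : S'.Monic := by
    rw [Monic, leadingCoeff, hS'n, hS', coeff_C_mul, comp_C_mul_X_coeff, hn',
      hS.coeff_natDegree, one_mul, inv_pow, inv_mul_cancel₀ (pow_ne_zero _ hc)]
  have hS'1 : ∀ i, ‖S'.coeff i‖ ≤ 1 := fun i => (norm_coeff_scale_le h n S hSd' i).trans (hn i)
  have hP'd : P'.degree ≤ S'.degree := by
    rw [degree_eq_natDegree hS'm.ne_zero, hS'n, hP', degree_C_mul hcn]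
    refine degree_le_of_natDegree_le ?_
    rw [natDegree_comp, hlin, mul_one]
    exact natDegree_le_of_degree_le hPd'
  have hCn : algebraMap C[X] (RatFunc C) (Polynomial.C (c⁻¹ ^ n)) ≠ 0 :=
    RatFunc.algebraMap_ne_zero (by rwa [Ne, C_eq_zero])
  have e : scale c hc (algebraMap C[X] (RatFunc C) P / algebraMap C[X] (RatFunc C) S) =
      algebraMap C[X] (RatFunc C) P' / algebraMap C[X] (RatFunc C) S' := by
    rw [scale_div, hP', hS', map_mul, map_mul, mul_div_mul_left _ _ hCn]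
  refine ⟨⟨P', S', hS'm, hP'd, hS'1, e⟩, ?_⟩
  have g1 : ∀ T : C[X], T.Monic → (∀ i, ‖T.coeff i‖ ≤ 1) → gp T = 1 := by
    intro T hT hT1
    refine le_antisymm (gp_le_iff.2 hT1) ?_
    have := norm_coeff_le T T.natDegree
    rwa [hT.coeff_natDegree, norm_one] at this
  rw [e, gauss_div, gauss_div, g1 S' hS'm hS'1, g1 S hS hn, div_one, div_one, gp_le_iff]
  exact fun i => (norm_coeff_scale_le h n P hPd' i).trans (norm_coeff_le P i)

lemma gen_pre2 (f : RatFunc C) : ∃ u ∈ pre2 C, ∃ v ∈ pre2 C, v ≠ 0 ∧ f * v = u := by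
  have hd : algebraMap C[X] (RatFunc C) f.denom ≠ 0 :=
    RatFunc.algebraMap_ne_zero f.denom_ne_zero
  set n := max f.num.natDegree f.denom.natDegree with hn
  have hX : (algebraMap C[X] (RatFunc C) (X ^ n)) ≠ 0 :=
    RatFunc.algebraMap_ne_zero (pow_ne_zero _ X_ne_zero)
  have key : ∀ P : C[X], P.natDegree ≤ n →
      algebraMap C[X] (RatFunc C) P / algebraMap C[X] (RatFunc C) (X ^ n) ∈ pre2 C := by
    intro P hP
    refine ⟨P, X ^ n, monic_X_pow n, ?_, fun i => ?_, rfl⟩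
    · rw [degree_X_pow]; exact degree_le_of_natDegree_le hP
    · rw [coeff_X_pow]; split_ifs <;> simp
  refine ⟨_, key f.num (le_max_left _ _), _, key f.denom (le_max_right _ _), ?_, ?_⟩
  · exact div_ne_zero hd hX
  · have h1 : f * algebraMap C[X] (RatFunc C) f.denom = algebraMap C[X] (RatFunc C) f.num := by
      rw [← eq_div_iff hd, f.num_div_denom]
    rw [← mul_div_assoc, h1]

lemma frac_F2 : ∀ x ∈ F2 C, ∃ a ∈ A2 C, ∃ b ∈ A2 C, b ≠ 0 ∧ x * b = a := by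
  intro x hx
  by_cases h0 : x = 0
  · exact ⟨0, zero_mem _, 1, one_mem _, one_ne_zero, by rw [h0, zero_mul]⟩
  · obtain ⟨g, hg0, h, hh, -, he⟩ := (mem_F2_iff h0).1 hx
    obtain ⟨u, hu, v, hv, hv0, huv⟩ := gen_pre2 g
    refine ⟨algebraMap (RatFunc C) (F0 C) u * (1 + h),
      mul_mem (mem_clS _ hu) (add_mem (one_mem _) hh),
      algebraMap (RatFunc C) (F0 C) v, mem_clS _ hv, ?_, ?_⟩
    · rw [Ne, map_eq_zero]; exact hv0
    · rw [he, ← huv, map_mul]
      ring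

theorem exists_sub2 (c : C) (hc : c ≠ 0) (h : 1 ≤ ‖c‖) :
    ∃ s : F2 C →ₐ[C] F2 C, (∀ f : RatFunc C, s (algebraMap (RatFunc C) (F2 C) f) =
        algebraMap (RatFunc C) (F2 C) (scale c hc f)) ∧
      ∀ x : F2 C, (x : F0 C) ∈ A2 C → (s x : F0 C) ∈ A2 C ∧ ‖(s x : F0 C)‖ ≤ ‖(x : F0 C)‖ :=
  exists_sub (pre2 C) (scale c hc : RatFunc C →ₐ[C] RatFunc C)
    (fun _ hf => (scale_pre2 hc h hf).1) (fun _ hf => (scale_pre2 hc h hf).2) (A2 C) rfl
    (F2 C) (fun _ hx => IntermediateField.subset_adjoin _ _ hx) frac_F2 (fun _ hx h0 => weierstrass_A2 hx h0) gen_pre2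

/-- restriction of functions on `|t| > 1` to `|t| > ‖c‖`, `1 ≤ ‖c‖`, in the coordinate `t / c`. -/
def sub2 (c : C) (hc : c ≠ 0) (h : 1 ≤ ‖c‖) : F2 C →ₐ[C] F2 C := (exists_sub2 c hc h).choose

theorem sub2_algebraMap (c : C) (hc : c ≠ 0) (h : 1 ≤ ‖c‖) (f : RatFunc C) :
    sub2 c hc h (algebraMap (RatFunc C) (F2 C) f) =
      algebraMap (RatFunc C) (F2 C) (scale c hc f) := (exists_sub2 c hc h).choose_spec.1 f

theorem sub2_mem_A2 (c : C) (hc : c ≠ 0) (h : 1 ≤ ‖c‖) (x : F2 C) (hx : (x : F0 C) ∈ A2 C) :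
    (sub2 c hc h x : F0 C) ∈ A2 C ∧ ‖(sub2 c hc h x : F0 C)‖ ≤ ‖(x : F0 C)‖ :=
  (exists_sub2 c hc h).choose_spec.2 x hx

end

end P025H373
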