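import Vale.Agent.P025.R2.H373.Gauss6

/-!
# (1.8) the derivation `d/dt` of the Gauss field `F0`
-/

open Polynomial

universe u

set_option linter.unusedSectionVars false

namespace P025H373

noncomputable section

section RatDer

variable (K : Type u) [Field K]

/-- `P ↦ P + P' ε` -/
def epsPoly : K[X] →ₐ[K] TrivSqZeroExt (RatFunc K) (RatFunc K) :=
  aeval (TrivSqZeroExt.inl RatFunc.X + TrivSqZeroExt.inr 1)

variable {K}

lemma epsPoly_apply (P : K[X]) : epsPoly K P =
    TrivSqZeroExt.inl (algebraMap K[X] (RatFunc K) P) +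
      TrivSqZeroExt.inr (algebraMap K[X] (RatFunc K) (derivative P)) := by
  have h : ∀ Q : K[X], aeval (TrivSqZeroExt.inl RatFunc.X :
      TrivSqZeroExt (RatFunc K) (RatFunc K)) Q =
      TrivSqZeroExt.inl (algebraMap K[X] (RatFunc K) Q) := by
    intro Q
    have h1 : (TrivSqZeroExt.inlAlgHom K (RatFunc K) (RatFunc K)) (aeval RatFunc.X Q) =
        aeval ((TrivSqZeroExt.inlAlgHom K (RatFunc K) (RatFunc K)) RatFunc.X) Q :=
      (Polynomial.aeval_algHom_apply _ _ _).symm
    have h2 : aeval (RatFunc.X : RatFunc K) Q = algebraMap K[X] (RatFunc K) Q := by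
      rw [← RatFunc.algebraMap_X, Polynomial.aeval_algebraMap_apply,
        Polynomial.aeval_X_left_apply]
    rw [h2] at h1
    exact h1.symm
  rw [epsPoly, Polynomial.aeval_add_of_sq_eq_zero, h, h]
  · congr 1
    rw [TrivSqZeroExt.inl_mul_inr]
    simp
  · rw [pow_two, TrivSqZeroExt.inr_mul_inr]

lemma isUnit_epsPoly (P : nonZeroDivisors K[X]) : IsUnit (epsPoly K P) := by
  rw [TrivSqZeroExt.isUnit_iff_isUnit_fst, epsPoly_apply]
  simp only [TrivSqZeroExt.fst_add, TrivSqZeroExt.fst_inl, TrivSqZeroExt.fst_inr, add_zero]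
  exact isUnit_iff_ne_zero.2 (RatFunc.algebraMap_ne_zero (nonZeroDivisors.ne_zero P.2))

variable (K) in
/-- `f ↦ f + f' ε` -/
def epsHom : RatFunc K →ₐ[K] TrivSqZeroExt (RatFunc K) (RatFunc K) :=
  IsLocalization.liftAlgHom (M := nonZeroDivisors K[X]) (f := epsPoly K) isUnit_epsPoly

lemma epsHom_poly (P : K[X]) : epsHom K (algebraMap K[X] (RatFunc K) P) = epsPoly K P := by
  rw [epsHom]
  exact IsLocalization.lift_eq _ _

lemma fst_epsHom (f : RatFunc K) : (epsHom K f).fst = f := by
  have h : ((TrivSqZeroExt.fstHom K (RatFunc K) (RatFunc K)).comp (epsHom K) :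
      RatFunc K →ₐ[K] RatFunc K).toRingHom = RingHom.id _ := by
    refine IsLocalization.ringHom_ext (nonZeroDivisors K[X]) ?_
    ext P
    · simp
      rw [← RatFunc.algebraMap_C, epsHom_poly, epsPoly_apply]
      simp
    · simp
      rw [← RatFunc.algebraMap_X, epsHom_poly, epsPoly_apply]
      simp
  exact congrArg (fun g : RatFunc K →+* RatFunc K => g f) h

variable (K) in
/-- the derivation `d/dt` of `K(t)` -/
def rd : Derivation K (RatFunc K) (RatFunc K) :=
  Derivation.mk' ((TrivSqZeroExt.sndHom (RatFunc K) (RatFunc K)).restrictScalars K ∘ₗ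
    (epsHom K).toLinearMap) (by
    intro f g
    change (epsHom K (f * g)).snd = f • (epsHom K g).snd + g • (epsHom K f).snd
    rw [map_mul, TrivSqZeroExt.snd_mul, fst_epsHom, fst_epsHom]
    simp [mul_comm])

lemma rd_poly (P : K[X]) : rd K (algebraMap K[X] (RatFunc K) P) =
    algebraMap K[X] (RatFunc K) (derivative P) := by
  change (epsHom K _).snd = _
  rw [epsHom_poly, epsPoly_apply, TrivSqZeroExt.snd_add, TrivSqZeroExt.snd_inl,
    TrivSqZeroExt.snd_inr, zero_add]

lemma rd_div (P Q : K[X]) (hQ : Q ≠ 0) :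
    rd K (algebraMap K[X] (RatFunc K) P / algebraMap K[X] (RatFunc K) Q) =
    algebraMap K[X] (RatFunc K) (derivative P * Q - P * derivative Q) /
      algebraMap K[X] (RatFunc K) (Q * Q) := by
  have hQ' : algebraMap K[X] (RatFunc K) Q ≠ 0 := RatFunc.algebraMap_ne_zero hQ
  set f := algebraMap K[X] (RatFunc K) P / algebraMap K[X] (RatFunc K) Q with hf
  have h1 : f * algebraMap K[X] (RatFunc K) Q = algebraMap K[X] (RatFunc K) P :=
    div_mul_cancel₀ _ hQ'
  have h2 := congrArg (rd K) h1
  rw [Derivation.leibniz, rd_poly, rd_poly, smul_eq_mul, smul_eq_mul] at h2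
  rw [map_sub, map_mul, map_mul, map_mul, eq_div_iff (mul_ne_zero hQ' hQ')]
  linear_combination (algebraMap K[X] (RatFunc K) Q) * h2 - (algebraMap K[X] (RatFunc K) (derivative Q)) * h1

end RatDer

section Norm

variable {C : Type u} [NormedField C] [IsUltrametricDist C]

lemma gp_derivative_le (P : C[X]) : gp (derivative P) ≤ gp P := by
  rw [gp_le_iff]
  intro i
  rw [coeff_derivative, norm_mul]
  have h1 : ‖((i : C) + 1)‖ ≤ 1 := by
    have := IsUltrametricDist.norm_natCast_le_one C (i + 1)
    push_cast at this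
    exact this
  calc ‖P.coeff (i + 1)‖ * ‖((i : C) + 1)‖ ≤ gp P * 1 :=
        mul_le_mul (norm_coeff_le P _) h1 (norm_nonneg _) (gp_nonneg _)
    _ = gp P := mul_one _

lemma gauss_rd_le (f : RatFunc C) : gauss C (rd C f) ≤ gauss C f := by
  have hQ : algebraMap C[X] (RatFunc C) f.denom ≠ 0 := RatFunc.algebraMap_ne_zero f.denom_ne_zero
  have hQn : 0 < gp f.denom :=
    lt_of_le_of_ne (gp_nonneg _) fun h => f.denom_ne_zero (gp_eq_zero.1 h.symm)
  have h1 : f * algebraMap C[X] (RatFunc C) f.denom = algebraMap C[X] (RatFunc C) f.num := by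
    rw [← eq_div_iff hQ, f.num_div_denom]
  have h2 := congrArg (rd C) h1
  rw [Derivation.leibniz, rd_poly, rd_poly, smul_eq_mul, smul_eq_mul] at h2
  have h3 : gauss C (rd C f) * gp f.denom ≤ gauss C f * gp f.denom := by
    have e : rd C f * algebraMap C[X] (RatFunc C) f.denom =
        algebraMap C[X] (RatFunc C) (derivative f.num) +
          (-(f * algebraMap C[X] (RatFunc C) (derivative f.denom))) := by
      linear_combination h2
    have e2 : gauss C (rd C f) * gp f.denom =
        gauss C (rd C f * algebraMap C[X] (RatFunc C) f.denom) := by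
      rw [map_mul, gauss_poly]
    rw [e2, e]
    refine (gauss_na _ _).trans (max_le ?_ ?_)
    · rw [gauss_poly]
      refine (gp_derivative_le _).trans ?_
      rw [← gauss_poly, ← h1, map_mul, gauss_poly]
    · rw [map_neg_eq_map, map_mul, gauss_poly]
      exact mul_le_mul_of_nonneg_left (gp_derivative_le _) (AbsoluteValue.nonneg _ _)
  exact le_of_mul_le_mul_right h3 hQn

variable (C)

/-- `d/dt` on `C(t)` with values in `F0` as a bounded homomorphism. -/
def derPre : NormedAddGroupHom (WithAbs (gauss C)) (F0 C) :=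
  AddMonoidHom.mkNormedAddGroupHom
    (((ιF C).toAddMonoidHom.comp (rd C).toLinearMap.toAddMonoidHom).comp
      (WithAbs.equiv (gauss C)).toAddEquiv.toAddMonoidHom) 1 (by
      intro x
      rw [one_mul]
      change ‖algebraMap (RatFunc C) (F0 C) (rd C x.ofAbs)‖ ≤ _
      rw [P025H373.norm_algebraMap]
      exact gauss_rd_le _)

/-- `d/dt` on `F0` as a function. -/
def derFun : F0 C → F0 C :=
  fun x => (NormedAddGroupHom.extension (derPre C) :
    UniformSpace.Completion (WithAbs (gauss C)) → F0 C) x

variable {C}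

lemma derFun_algebraMap (f : RatFunc C) :
    derFun C (algebraMap (RatFunc C) (F0 C) f) = algebraMap (RatFunc C) (F0 C) (rd C f) :=
  NormedAddGroupHom.extension_coe (derPre C) (WithAbs.toAbs (gauss C) f)

lemma derFun_add (x y : F0 C) : derFun C (x + y) = derFun C x + derFun C y :=
  map_add (NormedAddGroupHom.extension (derPre C)) _ _

lemma continuous_derFun : Continuous (derFun C) :=
  (NormedAddGroupHom.extension (derPre C)).continuous

lemma norm_derFun_le (x : F0 C) : ‖derFun C x‖ ≤ ‖x‖ := by
  refine denseRange_algebraMap.induction_on (p := fun x => ‖derFun C x‖ ≤ ‖x‖) x ?_ ?_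
  · exact isClosed_le continuous_derFun.norm continuous_norm
  · intro f
    rw [derFun_algebraMap, P025H373.norm_algebraMap, P025H373.norm_algebraMap]
    exact gauss_rd_le f

lemma derFun_mul (x y : F0 C) : derFun C (x * y) = x * derFun C y + y * derFun C x := by
  refine denseRange_algebraMap.induction_on₂
    (p := fun x y : F0 C => derFun C (x * y) = x * derFun C y + y * derFun C x) ?_ ?_ x y
  · refine isClosed_eq (continuous_derFun.comp (continuous_fst.mul continuous_snd)) ?_
    exact (continuous_fst.mul (continuous_derFun.comp continuous_snd)).add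
      (continuous_snd.mul (continuous_derFun.comp continuous_fst))
  · intro f g
    rw [← map_mul, derFun_algebraMap, derFun_algebraMap, derFun_algebraMap, Derivation.leibniz,
      map_add, smul_eq_mul, smul_eq_mul, map_mul, map_mul]

lemma derFun_algebraMap_C (a : C) : derFun C (algebraMap C (F0 C) a) = 0 := by
  rw [algebraMap_C_eq, derFun_algebraMap]
  have : rd C (RatFunc.C a) = 0 := by
    have := (rd C).map_algebraMap a
    simpa using this
  rw [this, map_zero]

end Norm

section Main

variable (C : Type u) [NontriviallyNormedField C] [IsUltrametricDist C] [CompleteSpace C]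
  [IsAlgClosed C]

/-- the derivation `d/dt` of `F0` -/
def der : Derivation C (F0 C) (F0 C) :=
  Derivation.mk'
    { toFun := derFun C
      map_add' := derFun_add
      map_smul' := fun a x => by
        rw [Algebra.smul_def, derFun_mul, derFun_algebraMap_C, mul_zero, add_zero,
          RingHom.id_apply, Algebra.smul_def] }
    (fun x y => by
      change derFun C (x * y) = x • derFun C y + y • derFun C x
      rw [derFun_mul, smul_eq_mul, smul_eq_mul])

variable {C}

lemma der_algebraMap (f : RatFunc C) :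
    der C (algebraMap (RatFunc C) (F0 C) f) = algebraMap (RatFunc C) (F0 C) (rd C f) :=
  derFun_algebraMap f

lemma continuous_der : Continuous (der C) := continuous_derFun

@[simp] theorem der_tt : der C (tt C) = 1 := by
  rw [tt, der_algebraMap, ← RatFunc.algebraMap_X, rd_poly, derivative_X, map_one, map_one]

theorem norm_der_le (x : F0 C) : ‖der C x‖ ≤ ‖x‖ := norm_derFun_le x

lemma der_poly (P : C[X]) : der C (aeval (tt C) P) = aeval (tt C) (derivative P) := by
  rw [tt, ← algebraMap_poly_eq, ← algebraMap_poly_eq, der_algebraMap, rd_poly]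

lemma mem_adjoin_tt {x : F0 C} : x ∈ Algebra.adjoin C {tt C} ↔ ∃ P : C[X], aeval (tt C) P = x := by
  rw [Algebra.adjoin_singleton_eq_range_aeval]
  rfl

theorem der_mem_A1 {x : F0 C} (hx : x ∈ A1 C) : der C x ∈ A1 C := by
  have h : Set.MapsTo (der C) (Algebra.adjoin C {tt C} : Set (F0 C))
      (Algebra.adjoin C {tt C} : Set (F0 C)) := by
    intro y hy
    obtain ⟨P, rfl⟩ := mem_adjoin_tt.1 hy
    rw [der_poly]
    exact mem_adjoin_tt.2 ⟨_, rfl⟩
  exact map_mem_closure continuous_der hx h

omit [IsAlgClosed C] [CompleteSpace C] [IsUltrametricDist C] in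
lemma degree_X_mul_derivative_le (P : C[X]) : (X * derivative P).degree ≤ P.degree := by
  by_cases h : derivative P = 0
  · simp [h]
  have hP : P ≠ 0 := fun hP => h (by rw [hP, derivative_zero])
  have h1 := degree_derivative_lt hP
  rw [degree_eq_natDegree h, degree_eq_natDegree hP] at h1
  rw [degree_mul, degree_X, degree_eq_natDegree h, degree_eq_natDegree hP]
  have h2 : (derivative P).natDegree < P.natDegree := by exact_mod_cast h1
  have h3 : 1 + (derivative P).natDegree ≤ P.natDegree := by omega
  exact_mod_cast h3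

/-- `t d/dt` and `d/dt` preserve the functions regular at infinity (dense subset). -/
lemma X_mul_rd_mem_pre2 {f : RatFunc C} (hf : f ∈ pre2 C) :
    RatFunc.X * rd C f ∈ pre2 C := by
  obtain ⟨P, S, hS, hd, hn, rfl⟩ := hf
  refine ⟨(X * derivative P) * S - P * (X * derivative S), S * S, hS.mul hS, ?_, ?_, ?_⟩
  · refine (degree_sub_le _ _).trans (max_le ?_ ?_)
    · rw [degree_mul, degree_mul (p := S)]
      exact add_le_add ((degree_X_mul_derivative_le P).trans hd) le_rfl
    · rw [degree_mul, degree_mul (p := S)]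
      exact add_le_add hd (degree_X_mul_derivative_le S)
  · rw [← gp_le_iff, gp_mul]
    exact mul_le_one₀ (gp_le_iff.2 hn) (gp_nonneg _) (gp_le_iff.2 hn)
  · rw [rd_div P S hS.ne_zero, ← RatFunc.algebraMap_X, ← mul_div_assoc, ← map_mul]
    congr 2
    ring

lemma inv_X_mem_pre2 : (RatFunc.X : RatFunc C)⁻¹ ∈ pre2 C := by
  refine ⟨1, X, monic_X, ?_, ?_, ?_⟩
  · rw [degree_one, degree_X]; exact zero_le_one
  · rw [← gp_le_iff, gp_X]
  · rw [map_one, RatFunc.algebraMap_X, one_div]

lemma rd_mem_pre2 {f : RatFunc C} (hf : f ∈ pre2 C) : rd C f ∈ pre2 C := by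
  have h := (pre2 C).mul_mem inv_X_mem_pre2 (X_mul_rd_mem_pre2 hf)
  rwa [inv_mul_cancel_left₀ RatFunc.X_ne_zero] at h

/-- `t d/dt` preserves `A2`. -/
theorem tt_mul_der_mem_A2 {x : F0 C} (hx : x ∈ A2 C) : tt C * der C x ∈ A2 C := by
  have h : Set.MapsTo (fun y => tt C * der C y) ((pre2 C).map (ιA C) : Set (F0 C))
      ((pre2 C).map (ιA C) : Set (F0 C)) := by
    rintro y ⟨f, hf, rfl⟩
    refine ⟨RatFunc.X * rd C f, X_mul_rd_mem_pre2 hf, ?_⟩
    change algebraMap (RatFunc C) (F0 C) _ = tt C * der C (algebraMap (RatFunc C) (F0 C) f)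
    rw [der_algebraMap, map_mul, tt]
  exact map_mem_closure (f := fun y => tt C * der C y)
    (continuous_const.mul continuous_der) hx h

theorem der_mem_A2 {x : F0 C} (hx : x ∈ A2 C) : der C x ∈ A2 C := by
  have h : Set.MapsTo (der C) ((pre2 C).map (ιA C) : Set (F0 C))
      ((pre2 C).map (ιA C) : Set (F0 C)) := by
    rintro y ⟨f, hf, rfl⟩
    refine ⟨rd C f, rd_mem_pre2 hf, ?_⟩
    change algebraMap (RatFunc C) (F0 C) _ = der C (algebraMap (RatFunc C) (F0 C) f)
    rw [der_algebraMap]
  exact map_mem_closure continuous_der hx h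

/-- A derivation preserving generators preserves the generated field. -/
lemma der_mem_adjoin (S : Set (F0 C)) (hS : ∀ x ∈ S, der C x ∈ S) {x : F0 C}
    (hx : x ∈ IntermediateField.adjoin (RatFunc C) S) :
    der C x ∈ IntermediateField.adjoin (RatFunc C) S := by
  induction hx using IntermediateField.adjoin_induction with
  | mem x hx => exact IntermediateField.subset_adjoin _ _ (hS x hx)
  | algebraMap f => rw [der_algebraMap]; exact IntermediateField.algebraMap_mem _ _
  | add x y hx hy ihx ihy => rw [map_add]; exact add_mem ihx ihy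
  | inv x hx ih =>
      rw [Derivation.leibniz_inv]
      exact mul_mem (neg_mem (pow_mem (inv_mem hx) 2)) ih
  | mul x y hx hy ihx ihy =>
      rw [Derivation.leibniz, smul_eq_mul, smul_eq_mul]
      exact add_mem (mul_mem hx ihy) (mul_mem hy ihx)

theorem der_mem_F1 {x : F0 C} (hx : x ∈ F1 C) : der C x ∈ F1 C :=
  der_mem_adjoin _ (fun _ h => der_mem_A1 h) hx

theorem der_mem_F2 {x : F0 C} (hx : x ∈ F2 C) : der C x ∈ F2 C :=
  der_mem_adjoin _ (fun _ h => der_mem_A2 h) hx

end Main

end

end P025H373
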