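import Vale.Agent.P025.R2.H373.Gauss6

/-!
# (1.9) change of radius: general extension lemma
-/

open Polynomial

universe u

set_option linter.unusedSectionVars false

namespace P025H373

noncomputable section

variable {C : Type u} [NontriviallyNormedField C] [IsUltrametricDist C] [CompleteSpace C]
  [IsAlgClosed C]

/-- closure in `F0` of a subalgebra of `C(t)` -/
def clS (S : Subalgebra C (RatFunc C)) : Subalgebra C (F0 C) :=
  (S.map (ιA C)).topologicalClosure

lemma ιA_apply (f : RatFunc C) : ιA C f = algebraMap (RatFunc C) (F0 C) f := rfl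

lemma mem_clS (S : Subalgebra C (RatFunc C)) {f : RatFunc C} (hf : f ∈ S) :
    algebraMap (RatFunc C) (F0 C) f ∈ clS S :=
  subset_closure ⟨f, hf, rfl⟩

lemma isClosed_clS (S : Subalgebra C (RatFunc C)) : IsClosed (clS S : Set (F0 C)) :=
  isClosed_closure

section Ext

variable (S : Subalgebra C (RatFunc C)) (σ : RatFunc C →ₐ[C] RatFunc C)

/-- the map `ι f ↦ ι (σ f)` -/
def preMap (hS : ∀ f ∈ S, σ f ∈ S) : (S.map (ιA C)) →ₐ[C] clS S :=
  AlgHom.codRestrict
    (((ιA C).comp σ).comp (S.val.comp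
      (S.equivMapOfInjective (ιA C) (ιA C).toRingHom.injective).symm.toAlgHom)) (clS S)
    (fun _ => mem_clS S (hS _ (Subtype.property _)))

lemma preMap_apply (hS : ∀ f ∈ S, σ f ∈ S) (f : RatFunc C) (hf : f ∈ S)
    (h : ιA C f ∈ S.map (ιA C)) : ((preMap S σ hS ⟨ιA C f, h⟩ : clS S) : F0 C) =
      algebraMap (RatFunc C) (F0 C) (σ f) := by
  have e : (S.equivMapOfInjective (ιA C) (ιA C).toRingHom.injective).symm ⟨ιA C f, h⟩ = ⟨f, hf⟩ := by
    rw [AlgEquiv.symm_apply_eq]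
    rfl
  change ιA C (σ ((S.equivMapOfInjective (ιA C) (ιA C).toRingHom.injective).symm ⟨ιA C f, h⟩ :
    RatFunc C)) = _
  rw [e]
  rfl

theorem exists_ext (hS : ∀ f ∈ S, σ f ∈ S) (hn : ∀ f ∈ S, gauss C (σ f) ≤ gauss C f) :
    ∃ φ : clS S →ₐ[C] clS S,
      (∀ f (hf : f ∈ S), (φ ⟨algebraMap (RatFunc C) (F0 C) f, mem_clS S hf⟩ : F0 C) =
        algebraMap (RatFunc C) (F0 C) (σ f)) ∧
      ∀ x, ‖(φ x : F0 C)‖ ≤ ‖(x : F0 C)‖ := by
  have : CompleteSpace (clS S) := (isClosed_clS S).completeSpace_coe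
  let i : (S.map (ιA C)) →ₐ[C] clS S :=
    Subalgebra.inclusion (Subalgebra.le_topologicalClosure _)
  have hi : IsUniformInducing i :=
    (isUniformEmbedding_set_inclusion (Subalgebra.le_topologicalClosure _)).isUniformInducing
  have hd : DenseRange i :=
    (denseRange_inclusion_iff (Subalgebra.le_topologicalClosure (S.map (ιA C)))).2 le_rfl
  have hb : ∀ x, ‖preMap S σ hS x‖ ≤ 1 * ‖x‖ := by
    rintro ⟨x, hx⟩
    obtain ⟨f, hf, rfl⟩ := Subalgebra.mem_map.1 hx
    have e := preMap_apply S σ hS f hf hx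
    rw [one_mul]
    have h1 : ‖preMap S σ hS ⟨ιA C f, hx⟩‖ = gauss C (σ f) := by
      rw [← P025H373.norm_algebraMap, ← e]; rfl
    have h2 : ‖(⟨ιA C f, hx⟩ : S.map (ιA C))‖ = gauss C f := by
      rw [← P025H373.norm_algebraMap]; rfl
    rw [h1, h2]
    exact hn f hf
  have hf : UniformContinuous (preMap S σ hS).toRingHom :=
    AddMonoidHomClass.uniformContinuous_of_bound (preMap S σ hS) 1 hb
  let φ : clS S →+* clS S := IsDenseInducing.extendRingHom (i := i.toRingHom)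
    (f := (preMap S σ hS).toRingHom) hi hd hf
  have hφ : ∀ x, φ (i x) = preMap S σ hS x := fun x =>
    IsDenseInducing.extend_eq (hi.isDenseInducing hd) hf.continuous x
  have hφc : Continuous φ := (uniformContinuous_uniformly_extend hi hd hf).continuous
  refine ⟨{ φ with commutes' := fun c => ?_ }, fun f hf => ?_, fun x => ?_⟩
  · have := hφ (algebraMap C _ c)
    rw [AlgHom.commutes, AlgHom.commutes] at this
    exact this
  · have hx : ιA C f ∈ S.map (ιA C) := Subalgebra.mem_map.2 ⟨f, hf, rfl⟩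
    have h2 := congrArg (Subtype.val) (hφ ⟨ιA C f, hx⟩)
    exact h2.trans (preMap_apply S σ hS f hf hx)
  · change ‖((φ x : clS S) : F0 C)‖ ≤ ‖(x : F0 C)‖
    refine hd.induction_on (p := fun x : clS S => ‖((φ x : clS S) : F0 C)‖ ≤ ‖(x : F0 C)‖) x ?_ ?_
    · exact isClosed_le (continuous_subtype_val.comp hφc).norm continuous_subtype_val.norm
    · intro y
      rw [hφ]
      have := hb y
      rw [one_mul] at this
      exact this

/-- Extension of `φ` to the fields of fractions. -/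
theorem exists_sub (hS : ∀ f ∈ S, σ f ∈ S) (hn : ∀ f ∈ S, gauss C (σ f) ≤ gauss C f)
    (A : Subalgebra C (F0 C)) (hA : A = clS S)
    (F : IntermediateField (RatFunc C) (F0 C)) (hAF : ∀ x ∈ A, x ∈ F)
    (hfrac : ∀ x ∈ F, ∃ a ∈ A, ∃ b ∈ A, b ≠ 0 ∧ x * b = a)
    (hW : ∀ x ∈ A, x ≠ 0 → ∃ g ∈ S, g ≠ 0 ∧ ∃ h ∈ A, ‖h‖ < 1 ∧
      x = algebraMap (RatFunc C) (F0 C) g * (1 + h))
    (hgen : ∀ f : RatFunc C, ∃ u ∈ S, ∃ v ∈ S, v ≠ 0 ∧ f * v = u) :
    ∃ s : F →ₐ[C] F, (∀ f : RatFunc C, s (algebraMap (RatFunc C) F f) =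
        algebraMap (RatFunc C) F (σ f)) ∧
      ∀ x : F, (x : F0 C) ∈ A → (s x : F0 C) ∈ A ∧ ‖(s x : F0 C)‖ ≤ ‖(x : F0 C)‖ := by
  subst hA
  obtain ⟨φ, hφ, hφn⟩ := exists_ext S σ hS hn
  -- the inclusion
  let j : clS S →+* F :=
    { toFun := fun x => ⟨x, hAF x x.2⟩
      map_one' := rfl
      map_mul' := fun _ _ => rfl
      map_zero' := rfl
      map_add' := fun _ _ => rfl }
  have hj : Function.Injective j := fun x y h =>
    Subtype.ext (congrArg (fun z : F => (z : F0 C)) h)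
  have hφinj : Function.Injective φ := by
    rw [injective_iff_map_eq_zero]
    intro x hx
    by_contra h0
    have h0' : (x : F0 C) ≠ 0 := fun h => h0 (Subtype.ext h)
    obtain ⟨g, hg, hg0, h, hh, hh1, he⟩ := hW x x.2 h0'
    have e1 : x = ⟨algebraMap (RatFunc C) (F0 C) g, mem_clS S hg⟩ * (1 + ⟨h, hh⟩) :=
      Subtype.ext he
    have e2 : (φ x : F0 C) = algebraMap (RatFunc C) (F0 C) (σ g) * (1 + (φ ⟨h, hh⟩ : F0 C)) := by
      rw [← hφ g hg, ← Subalgebra.coe_one (clS S), ← Subalgebra.coe_add, ← Subalgebra.coe_mul,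
        ← map_one φ, ← map_add, ← map_mul, ← e1]
    rw [hx] at e2
    have h3 : algebraMap (RatFunc C) (F0 C) (σ g) ≠ 0 := by
      rw [Ne, map_eq_zero, map_eq_zero]; exact hg0
    have h4 : (1 + (φ ⟨h, hh⟩ : F0 C)) ≠ 0 := by
      intro h5
      have h6 : ‖(φ ⟨h, hh⟩ : F0 C)‖ < 1 := (hφn _).trans_lt hh1
      have h7 : (φ ⟨h, hh⟩ : F0 C) = -1 := by linear_combination h5
      rw [h7, norm_neg, norm_one] at h6
      exact lt_irrefl _ h6
    exact mul_ne_zero h3 h4 e2.symm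
  let _ : Algebra (clS S) F := j.toAlgebra
  have hfr : IsFractionRing (clS S) F := by
    refine ⟨?_, ?_, ?_⟩
    · intro y
      refine isUnit_iff_ne_zero.2 ?_
      intro h
      exact nonZeroDivisors.ne_zero y.2 (hj (by rw [map_zero]; exact h))
    · intro z
      obtain ⟨a, ha, b, hb, hb0, he⟩ := hfrac z z.2
      refine ⟨(⟨a, ha⟩, ⟨⟨b, hb⟩, mem_nonZeroDivisors_of_ne_zero fun h => hb0 ?_⟩), Subtype.ext he⟩
      exact congrArg Subtype.val h
    · intro x y h
      exact ⟨1, by rw [hj h]⟩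
  have hg : Function.Injective (j.comp φ.toRingHom) := hj.comp hφinj
  let s0 : F →+* F := IsFractionRing.lift (A := clS S) (K := F) hg
  have hs0 : ∀ x : clS S, s0 (j x) = j (φ x) := fun x =>
    IsFractionRing.lift_algebraMap (A := clS S) (K := F) hg x
  let s : F →ₐ[C] F := { s0 with
    commutes' := fun c => by
      have h := hs0 (algebraMap C _ c)
      rw [AlgHom.commutes] at h
      exact h }
  have hs : ∀ x : clS S, s (j x) = j (φ x) := hs0
  have hsS : ∀ f ∈ S, s (algebraMap (RatFunc C) F f) = algebraMap (RatFunc C) F (σ f) := by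
    intro f hf
    have h := hs ⟨algebraMap (RatFunc C) (F0 C) f, mem_clS S hf⟩
    refine h.trans (Subtype.ext ?_)
    exact hφ f hf
  refine ⟨s, fun f => ?_, fun x hx => ?_⟩
  · obtain ⟨u, hu, v, hv, hv0, he⟩ := hgen f
    have h1 : s (algebraMap (RatFunc C) F f) * s (algebraMap (RatFunc C) F v) =
        s (algebraMap (RatFunc C) F u) := by rw [← map_mul, ← map_mul, he]
    have h2 : algebraMap (RatFunc C) F (σ f) * algebraMap (RatFunc C) F (σ v) =
        algebraMap (RatFunc C) F (σ u) := by rw [← map_mul, ← map_mul, he]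
    have h3 : algebraMap (RatFunc C) F (σ v) ≠ 0 := by
      rw [Ne, map_eq_zero, map_eq_zero]; exact hv0
    rw [hsS u hu, hsS v hv] at h1
    exact mul_right_cancel₀ h3 (h1.trans h2.symm)
  · have h := hs ⟨x, hx⟩
    have e : j ⟨x, hx⟩ = x := rfl
    rw [e] at h
    rw [h]
    exact ⟨(φ ⟨x, hx⟩).2, hφn _⟩

end Ext

end

end P025H373
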